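import Vale.Agent.P207.H80.Z

/-!
# P207, equations of the orbits of a polynomial representation

`exists_eqs`: the orbit of a vector under a polynomial representation satisfies finitely many
polynomial equations whose common kernel at the vector is the tangent space of the orbit.
-/

open MvPolynomial Set
open scoped ContDiff

namespace Vale.Agent.P207.H80.Orb

/-- the polynomial functions on a normed space -/
def Pol (F : Type) [NormedAddCommGroup F] [NormedSpace ℝ F] : Subalgebra ℝ (F → ℝ) :=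
  Algebra.adjoin ℝ (range fun l : F →L[ℝ] ℝ => (l : F → ℝ))

section Pol

variable {F G : Type} [NormedAddCommGroup F] [NormedSpace ℝ F] [NormedAddCommGroup G]
  [NormedSpace ℝ G]

theorem Pol.lin (l : F →L[ℝ] ℝ) : (fun x => l x) ∈ Pol F :=
  Algebra.subset_adjoin ⟨l, rfl⟩

theorem Pol.const (c : ℝ) : (fun _ : F => c) ∈ Pol F :=
  (Pol F).algebraMap_mem c

theorem Pol.add {f g : F → ℝ} (hf : f ∈ Pol F) (hg : g ∈ Pol F) : (fun x => f x + g x) ∈ Pol F :=
  (Pol F).add_mem hf hg

theorem Pol.mul {f g : F → ℝ} (hf : f ∈ Pol F) (hg : g ∈ Pol F) : (fun x => f x * g x) ∈ Pol F :=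
  (Pol F).mul_mem hf hg

theorem Pol.sum {ι : Type} (s : Finset ι) {f : ι → F → ℝ} (hf : ∀ i ∈ s, f i ∈ Pol F) :
    (fun x => ∑ i ∈ s, f i x) ∈ Pol F := by
  have h := (Pol F).sum_mem hf
  have h2 : (∑ i ∈ s, f i) = fun x => ∑ i ∈ s, f i x := by
    funext x
    simp
  rwa [h2] at h

/-- induction principle -/
theorem Pol.induct {p : (F → ℝ) → Prop} (hl : ∀ l : F →L[ℝ] ℝ, p fun x => l x)
    (hc : ∀ c : ℝ, p fun _ => c) (ha : ∀ f g, p f → p g → p fun x => f x + g x)
    (hm : ∀ f g, p f → p g → p fun x => f x * g x) {f : F → ℝ} (hf : f ∈ Pol F) : p f := by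
  induction hf using Algebra.adjoin_induction with
  | mem x hx =>
    obtain ⟨l, rfl⟩ := hx
    exact hl l
  | algebraMap r => exact hc r
  | add x y _ _ hx hy => exact ha x y hx hy
  | mul x y _ _ hx hy => exact hm x y hx hy

theorem Pol.comp (T : F →L[ℝ] G) {f : G → ℝ} (hf : f ∈ Pol G) : (fun x => f (T x)) ∈ Pol F := by
  refine Pol.induct (p := fun f => (fun x => f (T x)) ∈ Pol F) ?_ ?_ ?_ ?_ hf
  · intro l
    exact Pol.lin (l.comp T)
  · intro c
    exact Pol.const c
  · intro f g hf hg
    exact Pol.add hf hg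
  · intro f g hf hg
    exact Pol.mul hf hg

theorem Pol.contDiff {f : F → ℝ} (hf : f ∈ Pol F) : ContDiff ℝ ∞ f := by
  refine Pol.induct (p := fun f => ContDiff ℝ ∞ f) ?_ ?_ ?_ ?_ hf
  · intro l
    exact l.contDiff
  · intro c
    exact contDiff_const
  · intro f g hf hg
    exact hf.add hg
  · intro f g hf hg
    exact hf.mul hg

theorem Pol.exists_mv {n : ℕ} (e : F ≃L[ℝ] (Fin n → ℝ)) {f : F → ℝ} (hf : f ∈ Pol F) :
    ∃ P : MvPolynomial (Fin n) ℝ, ∀ x, f x = eval (e x) P := by
  classical
  refine Pol.induct (p := fun f => ∃ P : MvPolynomial (Fin n) ℝ, ∀ x, f x = eval (e x) P)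
    ?_ ?_ ?_ ?_ hf
  · intro l
    refine ⟨∑ i, C (l (e.symm (Pi.single i 1))) * X i, fun x => ?_⟩
    rw [map_sum]
    simp only [map_mul, eval_C, eval_X]
    have h1 : x = ∑ i, (e x i) • e.symm (Pi.single i (1 : ℝ)) := by
      apply e.injective
      rw [map_sum]
      simp only [map_smul, ContinuousLinearEquiv.apply_symm_apply]
      funext j
      rw [Finset.sum_apply, Finset.sum_eq_single j]
      · simp
      · intro i _ hij
        simp [Ne.symm hij]
      · intro h
        exact absurd (Finset.mem_univ j) h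
    conv_lhs => rw [h1]
    rw [map_sum]
    exact Finset.sum_congr rfl fun i _ => by rw [map_smul, smul_eq_mul, mul_comm]
  · intro c
    exact ⟨C c, fun x => by simp⟩
  · rintro f g ⟨P, hP⟩ ⟨Q, hQ⟩
    exact ⟨P + Q, fun x => by simp only [map_add, hP, hQ]⟩
  · rintro f g ⟨P, hP⟩ ⟨Q, hQ⟩
    exact ⟨P * Q, fun x => by simp only [map_mul, hP, hQ]⟩

theorem Pol.of_mv {n : ℕ} (e : F →L[ℝ] (Fin n → ℝ)) (P : MvPolynomial (Fin n) ℝ) :
    (fun x => eval (e x) P) ∈ Pol F := by
  induction P using MvPolynomial.induction_on with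
  | C r => simpa using Pol.const (F := F) r
  | add P Q hP hQ => simpa only [map_add] using Pol.add hP hQ
  | mul_X P i hP =>
    have h := Pol.mul hP (Pol.lin ((ContinuousLinearMap.proj (R := ℝ) (φ := fun _ => ℝ) i).comp e))
    have h2 : (fun x => eval (e x) (P * X i)) = fun x => eval (e x) P *
        ((ContinuousLinearMap.proj (R := ℝ) (φ := fun _ => ℝ) i).comp e) x := by
      funext x
      rw [map_mul, eval_X]
      rfl
    rw [h2]
    exact h

end Pol

/-- the derivative of a polynomial in several variables -/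
theorem hasFDerivAt_eval {n : ℕ} (P : MvPolynomial (Fin n) ℝ) (x : Fin n → ℝ) :
    HasFDerivAt (fun x : Fin n → ℝ => eval x P)
      (∑ i, (eval x (pderiv i P)) • (ContinuousLinearMap.proj (R := ℝ) (φ := fun _ => ℝ) i)) x := by
  classical
  induction P using MvPolynomial.induction_on with
  | C r =>
    simp only [eval_C, pderiv_C, map_zero, zero_smul, Finset.sum_const_zero]
    exact hasFDerivAt_const r x
  | add P Q hP hQ =>
    simp only [map_add, add_smul, Finset.sum_add_distrib]
    exact hP.add hQ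
  | mul_X P i hP =>
    have h1 : HasFDerivAt (fun x : Fin n → ℝ => x i)
        (ContinuousLinearMap.proj (R := ℝ) (φ := fun _ => ℝ) i) x :=
      (ContinuousLinearMap.proj (R := ℝ) (φ := fun _ => ℝ) i).hasFDerivAt
    have h2 := hP.mul h1
    simp only [map_mul, eval_X]
    refine h2.congr_fderiv ?_
    ext v
    simp only [pderiv_mul, map_add, map_mul, eval_X, pderiv_X, add_smul, Finset.sum_add_distrib,
      add_apply, smul_apply, sum_apply,
      ContinuousLinearMap.proj_apply, smul_eq_mul]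
    rw [add_comm]
    congr 1
    · rw [Finset.mul_sum]
      exact Finset.sum_congr rfl fun j _ => by ring
    · rw [Finset.sum_eq_single i]
      · simp
      · intro j _ hji
        simp [hji]
      · intro h
        exact absurd (Finset.mem_univ i) h

variable {M V : Type} [NormedAddCommGroup M] [NormedSpace ℝ M] [FiniteDimensional ℝ M]
  [NormedAddCommGroup V] [NormedSpace ℝ V] [FiniteDimensional ℝ V]

/-- **Equations of an orbit.** -/
theorem exists_eqs (act : M → V →L[ℝ] V) (e : M)
    (hmul : ∀ p q, ∃ r, (act p).comp (act q) = act r)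
    (hpol : ∀ (l : V →L[ℝ] ℝ) (v : V), (fun p => l (act p v)) ∈ Pol M)
    (D : M → ℝ) (hD : D ∈ Pol M) (hDe : D e ≠ 0)
    (hinv : ∀ p, D p ≠ 0 → Function.Injective (act p) ∧
      ∃ q : M →L[ℝ] M, ∀ Y, act (p + Y) = (act p).comp (act (e + q Y))) (θ₀ : V) :
    ∃ (n : ℕ) (f : Fin n → V → ℝ), (∀ i, f i ∈ Pol V) ∧ (∀ i p, f i (act p θ₀) = 0) ∧
      ∀ v, (∀ i, fderiv ℝ (f i) θ₀ v = 0) → ∃ X : M, v = fderiv ℝ (fun p => act p θ₀) e X := by
  classical
  obtain ⟨m, ⟨eM⟩⟩ : ∃ m, Nonempty (M ≃L[ℝ] (Fin m → ℝ)) :=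
    ⟨_, ⟨(Module.finBasis ℝ M).equivFunL⟩⟩
  obtain ⟨n, ⟨eV⟩⟩ : ∃ n, Nonempty (V ≃L[ℝ] (Fin n → ℝ)) :=
    ⟨_, ⟨(Module.finBasis ℝ V).equivFunL⟩⟩
  have h1 : ∀ j : Fin n, ∃ P : MvPolynomial (Fin m) ℝ, ∀ p, eV (act p θ₀) j = eval (eM p) P := by
    intro j
    obtain ⟨P, hP⟩ := Pol.exists_mv eM (hpol ((ContinuousLinearMap.proj (R := ℝ)
      (φ := fun _ => ℝ) j).comp (eV : V →L[ℝ] (Fin n → ℝ))) θ₀)
    exact ⟨P, fun p => (hP p)⟩
  choose Φ hΦ using h1
  obtain ⟨PD, hPD⟩ := Pol.exists_mv eM hD
  have hPD0 : PD ≠ 0 := by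
    rintro rfl
    exact hDe (by rw [hPD e]; simp)
  obtain ⟨f, Δ, hΔ, hf0, hf⟩ := Z.lemmaZ Φ
  obtain ⟨x, hx⟩ : ∃ x, eval x (PD * Δ) ≠ 0 := by
    by_contra hcon
    push Not at hcon
    exact mul_ne_zero hPD0 hΔ (MvPolynomial.funext fun x => by rw [hcon x, map_zero])
  rw [map_mul] at hx
  set p : M := eM.symm x with hp
  have hpx : eM p = x := eM.apply_symm_apply x
  have hDp : D p ≠ 0 := by
    rw [hPD p, hpx]
    exact left_ne_zero_of_mul hx
  obtain ⟨hinj, q, hq⟩ := hinv p hDp
  have heval : ∀ (y : Fin m → ℝ) (Q : MvPolynomial (Fin n) ℝ),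
      eval (fun i => eval y (Φ i)) Q = eval y (aeval Φ Q) := by
    intro y Q
    rw [← MvPolynomial.coe_aeval_eq_eval, ← MvPolynomial.coe_aeval_eq_eval]
    simp only [RingHom.coe_coe]
    rw [← MvPolynomial.comp_aeval_apply]
  refine ⟨n, fun j v => eval (eV (act p v)) (f j), ?_, ?_, ?_⟩
  · intro j
    exact Pol.of_mv ((eV : V →L[ℝ] (Fin n → ℝ)).comp (act p)) (f j)
  · intro j r
    obtain ⟨s, hs⟩ := hmul p r
    have h2 : act p (act r θ₀) = act s θ₀ := by
      rw [← hs]
      rfl
    have h3 : eV (act s θ₀) = fun i => eval (eM s) (Φ i) := by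
      funext i
      exact hΦ i s
    show eval (eV (act p (act r θ₀))) (f j) = 0
    rw [h2, h3, heval, hf0, map_zero]
  · intro v hv
    have h4 : eV (act p θ₀) = fun i => eval x (Φ i) := by
      funext i
      rw [hΦ i p, hpx]
    have h5 : ∀ j, ∑ i, eval (fun i => eval x (Φ i)) (pderiv i (f j)) * eV (act p v) i = 0 := by
      intro j
      have h6 : HasFDerivAt (fun v => eval (eV (act p v)) (f j))
          ((∑ i, (eval (eV (act p θ₀)) (pderiv i (f j))) •
            (ContinuousLinearMap.proj (R := ℝ) (φ := fun _ => ℝ) i)).comp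
            ((eV : V →L[ℝ] (Fin n → ℝ)).comp (act p))) θ₀ := by
        have h61 : HasFDerivAt (fun v => eV (act p v))
            ((eV : V →L[ℝ] (Fin n → ℝ)).comp (act p)) θ₀ :=
          ((eV : V →L[ℝ] (Fin n → ℝ)).comp (act p)).hasFDerivAt
        exact (hasFDerivAt_eval (f j) (eV (act p θ₀))).comp θ₀ h61
      have h7 := hv j
      rw [h6.fderiv] at h7
      rw [← h4]
      simpa only [ContinuousLinearMap.comp_apply, sum_apply,
        smul_apply, ContinuousLinearMap.proj_apply, smul_eq_mul,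
        ContinuousLinearEquiv.coe_coe] using h7
    obtain ⟨w, hw⟩ := hf x (right_ne_zero_of_mul hx) _ h5
    -- differentiability of the orbit map
    have h8 : ∀ p' : M, HasFDerivAt (fun p => act p θ₀)
        ((eV.symm : (Fin n → ℝ) →L[ℝ] V).comp ((ContinuousLinearMap.pi fun j =>
          ∑ a, (eval (eM p') (pderiv a (Φ j))) •
            (ContinuousLinearMap.proj (R := ℝ) (φ := fun _ => ℝ) a)).comp
            (eM : M →L[ℝ] (Fin m → ℝ)))) p' := by
      intro p'
      have h9 : (fun p => act p θ₀) = fun p => (eV.symm : (Fin n → ℝ) →L[ℝ] V)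
          (fun j => eval (eM p) (Φ j)) := by
        funext p
        have h10 : (fun j => eval (eM p) (Φ j)) = eV (act p θ₀) := by
          funext j
          exact (hΦ j p).symm
        rw [h10]
        exact (eV.symm_apply_apply _).symm
      rw [h9]
      have h11 : HasFDerivAt (fun p => fun j => eval (eM p) (Φ j))
          ((ContinuousLinearMap.pi fun j => ∑ a, (eval (eM p') (pderiv a (Φ j))) •
            (ContinuousLinearMap.proj (R := ℝ) (φ := fun _ => ℝ) a)).comp
            (eM : M →L[ℝ] (Fin m → ℝ))) p' := by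
        rw [hasFDerivAt_pi']
        intro j
        have h12 := (hasFDerivAt_eval (Φ j) (eM p')).comp p' (eM : M →L[ℝ] (Fin m → ℝ)).hasFDerivAt
        exact h12
      exact (eV.symm : (Fin n → ℝ) →L[ℝ] V).hasFDerivAt.comp p' h11
    -- the two derivatives
    have h13 : act p v = fderiv ℝ (fun p => act p θ₀) p (eM.symm w) := by
      rw [(h8 p).fderiv]
      apply eV.injective
      funext j
      rw [hw j, hpx]
      simp [ContinuousLinearMap.comp_apply]
    have h14 : fderiv ℝ (fun p => act p θ₀) p = (act p).comp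
        ((fderiv ℝ (fun p => act p θ₀) e).comp q) := by
      have h15 : (fun p' => act p' θ₀) = fun p' => act p (act (e + q (p' - p)) θ₀) := by
        funext p'
        have h16 := hq (p' - p)
        rw [add_sub_cancel] at h16
        rw [h16]
        rfl
      have h17 : HasFDerivAt (fun p' : M => e + q (p' - p)) q p := by
        have h18 : HasFDerivAt (fun p' : M => q p' - q p) q p := q.hasFDerivAt.sub_const (q p)
        have h19 : (fun p' : M => e + q (p' - p)) = fun p' => e + (q p' - q p) := by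
          funext p'
          rw [map_sub]
        rw [h19]
        exact h18.const_add e
      have h21 : e + q (p - p) = e := by rw [sub_self, map_zero, add_zero]
      have h22 : HasFDerivAt (fun p => act p θ₀) (fderiv ℝ (fun p => act p θ₀) e)
          (e + q (p - p)) := by
        rw [h21]
        exact (h8 e).differentiableAt.hasFDerivAt
      have h231 : HasFDerivAt (fun p' => act (e + q (p' - p)) θ₀)
          ((fderiv ℝ (fun p => act p θ₀) e).comp q) p :=
        HasFDerivAt.comp (g := fun p => act p θ₀) p h22 h17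
      have h23 : HasFDerivAt (fun p' => act p (act (e + q (p' - p)) θ₀)) ((act p).comp
          ((fderiv ℝ (fun p => act p θ₀) e).comp q)) p :=
        HasFDerivAt.comp (g := fun v => act p v) p (act p).hasFDerivAt h231
      exact (h23.congr_of_eventuallyEq
        (Filter.Eventually.of_forall fun p' => congrFun h15 p')).fderiv
    refine ⟨q (eM.symm w), hinj ?_⟩
    rw [h13, h14]
    rfl

end Vale.Agent.P207.H80.Orb
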