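import Vale.Agent.P207.H80.Orb
import Vale.Agent.P207.H734.TyB

/-!
# P207, the equations of the orbits for the representations of row TY

`PRep.IsPol ρ` : the representation is polynomial in the variable `B = A⁻¹`.
`PRep.IsPol.eqn` : then `ρ.Eqn θ₀` holds for every `θ₀` (LEMMA Z).
-/

open Set
open scoped ContDiff

namespace Vale.Agent.P207.H80.Orb

section Vec

variable {F V : Type} [NormedAddCommGroup F] [NormedSpace ℝ F]
  [NormedAddCommGroup V] [NormedSpace ℝ V] [FiniteDimensional ℝ V]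

/-- a map all of whose coordinates are polynomial is smooth -/
theorem Pol.contDiff_vec {g : F → V} (h : ∀ l : V →L[ℝ] ℝ, (fun p => l (g p)) ∈ Pol F) :
    ContDiff ℝ ∞ g := by
  obtain ⟨n, ⟨eV⟩⟩ : ∃ n, Nonempty (V ≃L[ℝ] (Fin n → ℝ)) :=
    ⟨_, ⟨(Module.finBasis ℝ V).equivFunL⟩⟩
  have h1 : ContDiff ℝ ∞ fun p => eV (g p) := by
    rw [contDiff_pi]
    intro i
    exact Pol.contDiff (h ((ContinuousLinearMap.proj (R := ℝ) (φ := fun _ => ℝ) i).comp
      (eV : V →L[ℝ] (Fin n → ℝ))))
  have h2 : g = fun p => (eV.symm : (Fin n → ℝ) →L[ℝ] V) (eV (g p)) := by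
    funext p
    exact (eV.symm_apply_apply _).symm
  rw [h2]
  exact (eV.symm : (Fin n → ℝ) →L[ℝ] V).contDiff.comp h1

end Vec

section Det

variable {E : Type} [NormedAddCommGroup E] [NormedSpace ℝ E] [FiniteDimensional ℝ E]

theorem Pol.prod {F : Type} [NormedAddCommGroup F] [NormedSpace ℝ F] {ι : Type} (s : Finset ι)
    {f : ι → F → ℝ} (hf : ∀ i ∈ s, f i ∈ Pol F) : (fun x => ∏ i ∈ s, f i x) ∈ Pol F := by
  have h := (Pol F).prod_mem hf
  have h2 : (∏ i ∈ s, f i) = fun x => ∏ i ∈ s, f i x := by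
    funext x
    simp
  rwa [h2] at h

theorem Pol.matrix_det {F : Type} [NormedAddCommGroup F] [NormedSpace ℝ F] {k : ℕ}
    {A : F → Matrix (Fin k) (Fin k) ℝ} (hA : ∀ i j, (fun x => A x i j) ∈ Pol F) :
    (fun x => (A x).det) ∈ Pol F := by
  have h1 : (fun x => (A x).det) = fun x => ∑ σ : Equiv.Perm (Fin k),
      (((Equiv.Perm.sign σ : ℤ) : ℝ)) * ∏ i, A x (σ i) i := by
    funext x
    rw [Matrix.det_apply']
  rw [h1]
  refine Pol.sum _ fun σ _ => ?_
  exact Pol.mul (Pol.const _) (Pol.prod _ fun i _ => hA _ _)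

/-- the determinant of an endomorphism is polynomial -/
theorem Pol.det : (fun B : E →L[ℝ] E => LinearMap.det (B : E →ₗ[ℝ] E)) ∈ Pol (E →L[ℝ] E) := by
  classical
  set b := Module.finBasis ℝ E with hb
  have h1 : (fun B : E →L[ℝ] E => LinearMap.det (B : E →ₗ[ℝ] E)) =
      fun B : E →L[ℝ] E => (LinearMap.toMatrix b b (B : E →ₗ[ℝ] E)).det := by
    funext B
    rw [LinearMap.det_toMatrix]
  rw [h1]
  refine Pol.matrix_det fun i j => ?_
  have h2 : (fun B : E →L[ℝ] E => LinearMap.toMatrix b b (B : E →ₗ[ℝ] E) i j) =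
      fun B : E →L[ℝ] E => ((LinearMap.toContinuousLinearMap (b.coord i)).comp
        (ContinuousLinearMap.apply ℝ E (b j))) B := by
    funext B
    rw [LinearMap.toMatrix_apply]
    rfl
  rw [h2]
  exact Pol.lin _

end Det

end Vale.Agent.P207.H80.Orb

namespace Vale.Agent.P207.H734.PRep

open Vale.Agent.P207.H80.Orb

variable {E W : Type} [NormedAddCommGroup E] [NormedSpace ℝ E] [NormedAddCommGroup W]
  [NormedSpace ℝ W]

/-- the representation is polynomial in `B` -/
def IsPol (ρ : PRep E W) : Prop :=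
  ∀ (l : W →L[ℝ] ℝ) (w : W), (fun B : E →L[ℝ] E => l (ρ.rep B w)) ∈ Pol (E →L[ℝ] E)

variable (ρ : PRep E W) {k : ℕ}

/-- the action as a continuous linear map -/
noncomputable def actL (p : (E →L[ℝ] E) × (Fin k → Fin k → ℝ)) : (Fin k → W) →L[ℝ] (Fin k → W) :=
  ContinuousLinearMap.pi fun i => ∑ j, p.2 i j • (ρ.rep p.1).comp
    (ContinuousLinearMap.proj (R := ℝ) (φ := fun _ : Fin k => W) j)

theorem actL_apply (p : (E →L[ℝ] E) × (Fin k → Fin k → ℝ)) (θ : Fin k → W) :
    ρ.actL p θ = ρ.act p.1 p.2 θ := by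
  ext1 i
  simp [actL, act]

/-- the unit of the group -/
def e0 (E : Type) [NormedAddCommGroup E] [NormedSpace ℝ E] (k : ℕ) :
    (E →L[ℝ] E) × (Fin k → Fin k → ℝ) := (1, fun i j => if i = j then 1 else 0)

theorem actL_mul (p q : (E →L[ℝ] E) × (Fin k → Fin k → ℝ)) :
    (ρ.actL p).comp (ρ.actL q) = ρ.actL (q.1 * p.1, fun i j => ∑ l, p.2 i l * q.2 l j) := by
  ext1 θ
  rw [ContinuousLinearMap.comp_apply, actL_apply, actL_apply, actL_apply, act_act]

theorem actL_e0 : ρ.actL (e0 E k) = ContinuousLinearMap.id ℝ (Fin k → W) := by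
  ext1 θ
  rw [actL_apply]
  ext1 i
  simp [act, e0, ρ.one]

variable [FiniteDimensional ℝ E] [FiniteDimensional ℝ W]

omit [FiniteDimensional ℝ E] [FiniteDimensional ℝ W] in
theorem IsPol.actL {ρ : PRep E W} (h : ρ.IsPol) (l : (Fin k → W) →L[ℝ] ℝ) (v : Fin k → W) :
    (fun p : (E →L[ℝ] E) × (Fin k → Fin k → ℝ) => l (ρ.actL p v)) ∈
      Pol ((E →L[ℝ] E) × (Fin k → Fin k → ℝ)) := by
  classical
  have h1 : (fun p : (E →L[ℝ] E) × (Fin k → Fin k → ℝ) => l (ρ.actL p v)) =
      fun p => ∑ i, ∑ j, p.2 i j * (l.comp (ContinuousLinearMap.single ℝ (fun _ : Fin k => W) i))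
        (ρ.rep p.1 (v j)) := by
    funext p
    have h2 : ρ.actL p v = ∑ i, Pi.single (M := fun _ : Fin k => W) i (ρ.act p.1 p.2 v i) := by
      rw [actL_apply, Finset.univ_sum_single]
    rw [h2, map_sum]
    refine Finset.sum_congr rfl fun i _ => ?_
    have h3 : ρ.act p.1 p.2 v i = ∑ j, p.2 i j • ρ.rep p.1 (v j) := rfl
    have h4 : l (Pi.single (M := fun _ : Fin k => W) i (ρ.act p.1 p.2 v i)) =
        (l.comp (ContinuousLinearMap.single ℝ (fun _ : Fin k => W) i)) (ρ.act p.1 p.2 v i) := rfl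
    rw [h4, h3, map_sum]
    exact Finset.sum_congr rfl fun j _ => by rw [map_smul, smul_eq_mul]
  rw [h1]
  refine Pol.sum _ fun i _ => Pol.sum _ fun j _ => Pol.mul ?_ ?_
  · exact Pol.lin (((ContinuousLinearMap.proj (R := ℝ) (φ := fun _ : Fin k => ℝ) j).comp
      (ContinuousLinearMap.proj (R := ℝ) (φ := fun _ : Fin k => Fin k → ℝ) i)).comp
      (ContinuousLinearMap.snd ℝ (E →L[ℝ] E) (Fin k → Fin k → ℝ)))
  · exact Pol.comp (ContinuousLinearMap.fst ℝ (E →L[ℝ] E) (Fin k → Fin k → ℝ))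
      (h (l.comp (ContinuousLinearMap.single ℝ (fun _ : Fin k => W) i)) (v j))

/-- **LEMMA Z for the representations of row TY** -/
theorem IsPol.eqn {ρ : PRep E W} (h : ρ.IsPol) (θ₀ : Fin k → W) : ρ.Eqn θ₀ := by
  classical
  obtain ⟨n, f, hf1, hf2, hf3⟩ := exists_eqs (ρ.actL (k := k)) (e0 E k)
    (fun p q => ⟨_, ρ.actL_mul p q⟩) (fun l v => h.actL l v)
    (fun p => LinearMap.det (p.1 : E →ₗ[ℝ] E) * (Matrix.of p.2).det)
    (by
      refine Pol.mul ?_ ?_
      · exact Pol.comp (ContinuousLinearMap.fst ℝ (E →L[ℝ] E) (Fin k → Fin k → ℝ)) Pol.det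
      · refine Pol.matrix_det fun i j => ?_
        exact Pol.lin (((ContinuousLinearMap.proj (R := ℝ) (φ := fun _ : Fin k => ℝ) j).comp
          (ContinuousLinearMap.proj (R := ℝ) (φ := fun _ : Fin k => Fin k → ℝ) i)).comp
          (ContinuousLinearMap.snd ℝ (E →L[ℝ] E) (Fin k → Fin k → ℝ))))
    (by
      have h1 : Matrix.of (e0 E k).2 = 1 := by
        ext i j
        simp [e0, Matrix.one_apply]
      have h2 : ((e0 E k).1 : E →ₗ[ℝ] E) = LinearMap.id := rfl
      rw [h1, h2]
      simp)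
    (by
      intro p hp
      have hB : LinearMap.det (p.1 : E →ₗ[ℝ] E) ≠ 0 := left_ne_zero_of_mul hp
      have hc : (Matrix.of p.2).det ≠ 0 := right_ne_zero_of_mul hp
      obtain ⟨C, hBC, hCB⟩ : ∃ C : E →L[ℝ] E, p.1 * C = 1 ∧ C * p.1 = 1 := by
        set eB : E ≃ₗ[ℝ] E := LinearEquiv.ofIsUnitDet (f := (p.1 : E →ₗ[ℝ] E))
          (v := Module.finBasis ℝ E) (v' := Module.finBasis ℝ E) (by
            rw [LinearMap.det_toMatrix]
            exact isUnit_iff_ne_zero.mpr hB) with heB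
        have h3 : ∀ x, eB x = p.1 x := fun x => rfl
        refine ⟨LinearMap.toContinuousLinearMap (eB.symm : E →ₗ[ℝ] E), ?_, ?_⟩
        · ext x
          show p.1 (eB.symm x) = x
          rw [← h3]
          exact eB.apply_symm_apply x
        · ext x
          show eB.symm (p.1 x) = x
          rw [← h3]
          exact eB.symm_apply_apply x
      set c' : Matrix (Fin k) (Fin k) ℝ := (Matrix.of p.2)⁻¹ with hc'
      have hcc : Matrix.of p.2 * c' = 1 := Matrix.mul_nonsing_inv _ (isUnit_iff_ne_zero.mpr hc)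
      have hcc' : c' * Matrix.of p.2 = 1 := Matrix.nonsing_inv_mul _ (isUnit_iff_ne_zero.mpr hc)
      refine ⟨?_, ?_⟩
      · -- injective
        have h4 : (ρ.actL (C, fun i j => c' i j)).comp (ρ.actL p) =
            ContinuousLinearMap.id ℝ (Fin k → W) := by
          rw [ρ.actL_mul, ← ρ.actL_e0 (k := k)]
          congr 1
          refine Prod.ext hBC ?_
          funext i j
          have h5 := congrFun (congrFun hcc' i) j
          rw [Matrix.mul_apply, Matrix.one_apply] at h5
          simpa [e0] using h5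
        intro θ θ' hθ
        have h6 := congrArg (ρ.actL (C, fun i j => c' i j)) hθ
        have h7 : ∀ θ, ρ.actL (C, fun i j => c' i j) (ρ.actL p θ) = θ := fun θ =>
          DFunLike.congr_fun h4 θ
        rwa [h7, h7] at h6
      · -- the division
        set q1 : (E →L[ℝ] E) →L[ℝ] (E →L[ℝ] E) :=
          (ContinuousLinearMap.compL ℝ E E E).flip C with hq1
        have hq1' : ∀ Y, q1 Y = Y * C := fun Y => rfl
        set q2 : (Fin k → Fin k → ℝ) →ₗ[ℝ] (Fin k → Fin k → ℝ) :=
          { toFun := fun Y i j => ∑ l, c' i l * Y l j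
            map_add' := by
              intro Y Y'
              funext i j
              simp [mul_add, Finset.sum_add_distrib]
            map_smul' := by
              intro a Y
              funext i j
              simp only [Pi.smul_apply, smul_eq_mul, RingHom.id_apply, Finset.mul_sum]
              exact Finset.sum_congr rfl fun l _ => by ring } with hq2
        refine ⟨q1.prodMap (LinearMap.toContinuousLinearMap q2), fun Y => ?_⟩
        rw [actL_mul]
        congr 1
        refine Prod.ext ?_ ?_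
        · show p.1 + Y.1 = (1 + q1 Y.1) * p.1
          rw [hq1', add_mul, one_mul, mul_assoc, hCB, mul_one]
        · funext i j
          show p.2 i j + Y.2 i j = ∑ l, p.2 i l * ((if l = j then 1 else 0) +
            ∑ l', c' l l' * Y.2 l' j)
          simp only [mul_add, Finset.sum_add_distrib]
          congr 1
          · simp
          · have h8 : Matrix.of p.2 * (c' * Matrix.of Y.2) = Matrix.of Y.2 := by
              rw [← Matrix.mul_assoc, hcc, Matrix.one_mul]
            have h9 := congrFun (congrFun h8 i) j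
            rw [Matrix.mul_apply] at h9
            simp only [Matrix.mul_apply, Matrix.of_apply] at h9
            exact h9.symm) θ₀
  refine ⟨n, fun v i => f i v, ?_, ?_, ?_⟩
  · rw [contDiff_pi]
    intro i
    exact_mod_cast (contDiff_infty.mp (Pol.contDiff (hf1 i)) 2)
  · intro g _
    funext i
    have h1 := hf2 i g
    rw [actL_apply] at h1
    exact h1
  · intro v hv
    have h2 : ∀ i, fderiv ℝ (f i) θ₀ v = 0 := by
      intro i
      have h3 : HasFDerivAt (fun v i => f i v)
          (ContinuousLinearMap.pi fun i => fderiv ℝ (f i) θ₀) θ₀ := by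
        rw [hasFDerivAt_pi]
        intro i
        exact (((Pol.contDiff (hf1 i)).differentiable (by simp)) θ₀).hasFDerivAt
      rw [h3.fderiv] at hv
      exact congrFun hv i
    obtain ⟨X, hX⟩ := hf3 v h2
    refine ⟨X, ?_⟩
    rw [hX]
    -- the derivative of the orbit map
    have h4 : ContDiff ℝ ∞ fun p : (E →L[ℝ] E) × (Fin k → Fin k → ℝ) => ρ.actL p θ₀ :=
      Pol.contDiff_vec fun l => h.actL l θ₀
    have h5 : HasFDerivAt (fun p : (E →L[ℝ] E) × (Fin k → Fin k → ℝ) => ρ.actL p θ₀)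
        (fderiv ℝ (fun p : (E →L[ℝ] E) × (Fin k → Fin k → ℝ) => ρ.actL p θ₀) (e0 E k))
        (e0 E k + (0 : ℝ) • X) := by
      rw [zero_smul, add_zero]
      exact ((h4.differentiable (by simp)) (e0 E k)).hasFDerivAt
    have h6 : HasDerivAt (fun t : ℝ => e0 E k + t • X) X 0 := by
      have h7 := ((hasDerivAt_id (0 : ℝ)).smul_const X).const_add (e0 E k)
      simpa using h7
    have h8 : HasDerivAt (fun t : ℝ => ρ.actL (e0 E k + t • X) θ₀)
        (fderiv ℝ (fun p : (E →L[ℝ] E) × (Fin k → Fin k → ℝ) => ρ.actL p θ₀) (e0 E k) X) 0 :=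
      HasFDerivAt.comp_hasDerivAt (l := fun p : (E →L[ℝ] E) × (Fin k → Fin k → ℝ) =>
        ρ.actL p θ₀) (0 : ℝ) h5 h6
    have h9 := ρ.hasDerivAt_act θ₀ X.1 X.2
    have h10 : (fun t : ℝ => ρ.actL (e0 E k + t • X) θ₀) = fun t : ℝ =>
        ρ.act (1 + t • X.1) (fun i j => (if i = j then 1 else 0) + t * X.2 i j) θ₀ := by
      funext t
      rw [actL_apply]
      rfl
    rw [h10] at h8
    exact h9.unique h8

end Vale.Agent.P207.H734.PRep
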