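import Vale.Agent.P207.H80.FmRep
import Vale.Agent.P207.H734.TyC

/-!
# P207: the representation on the affine sections is polynomial
-/

open Set
open scoped ContDiff

namespace Vale.Agent.P207.H734.PRep

open Vale.Agent.P207.H80.Orb

variable {E W : Type} [NormedAddCommGroup E] [NormedSpace ℝ E] [FiniteDimensional ℝ E]
  [NormedAddCommGroup W] [NormedSpace ℝ W] [FiniteDimensional ℝ W]

theorem IsPol.aff {ρ : PRep E W} (h : ρ.IsPol) : ρ.aff.IsPol := by
  intro l p
  have h1 : (fun B : E →L[ℝ] E => l (ρ.aff.rep B p)) =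
      fun B : E →L[ℝ] E => l (ρ.rep B p.1, (ρ.rep B).comp (p.2.comp B)) := by
    funext B
    rw [aff_rep]
  rw [h1]
  exact Pol.aff h l p

end Vale.Agent.P207.H734.PRep

namespace Vale.Agent.P207.H80

open Vale.Agent.P207.H734 Vale.Agent.P207.H751

variable {V : Type} [NormedAddCommGroup V] [NormedSpace ℝ V] [FiniteDimensional ℝ V]

/-- equations of the orbits of families of affine sections of forms -/
theorem fmRep_aff_eqn {k : ℕ} (θ₀ : Fin k → (Fm V × (V →L[ℝ] Fm V))) :
    (fmRep V).aff.Eqn θ₀ :=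
  (fmRep_isPol (V := V)).aff.eqn θ₀

/-- equations of the orbits of families of forms -/
theorem fmRep_eqn {k : ℕ} (θ₀ : Fin k → Fm V) : (fmRep V).Eqn θ₀ :=
  (fmRep_isPol (V := V)).eqn θ₀

end Vale.Agent.P207.H80
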