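import Vale.Agent.P207.H80.Eqn
import Vale.Agent.P207.H751.Pair

/-!
# P207, the representation of `GL(V)` on the bilinear forms, and polynomiality
-/

open Set
open scoped ContDiff

namespace Vale.Agent.P207.H80.Orb

section Aff

variable {E W : Type} [NormedAddCommGroup E] [NormedSpace ℝ E] [FiniteDimensional ℝ E]
  [NormedAddCommGroup W] [NormedSpace ℝ W]

/-- the sections `p.1 + p.2 x`: if `rep` is polynomial then so is the representation on
`W × (E →L[ℝ] W)` -/
theorem Pol.aff {rep : (E →L[ℝ] E) → (W →L[ℝ] W)}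
    (h : ∀ (l : W →L[ℝ] ℝ) (w : W), (fun B => l (rep B w)) ∈ Pol (E →L[ℝ] E))
    (l : (W × (E →L[ℝ] W)) →L[ℝ] ℝ) (p : W × (E →L[ℝ] W)) :
    (fun B : E →L[ℝ] E => l (rep B p.1, (rep B).comp (p.2.comp B))) ∈ Pol (E →L[ℝ] E) := by
  classical
  set b := Module.finBasis ℝ E with hb
  set c : Fin (Module.finrank ℝ E) → (E →L[ℝ] ℝ) := fun i =>
    LinearMap.toContinuousLinearMap (b.coord i) with hc
  -- the functional on the second factor, split along the basis
  set l2 : Fin (Module.finrank ℝ E) → (W →L[ℝ] ℝ) := fun i =>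
    (l.comp (ContinuousLinearMap.inr ℝ W (E →L[ℝ] W))).comp
      ((ContinuousLinearMap.smulRightL ℝ E W) (c i)) with hl2
  have hexp : ∀ x : E, x = ∑ i, c i x • b i := fun x => (b.sum_repr x).symm
  have h1 : ∀ u : E →L[ℝ] W, u = ∑ i, (ContinuousLinearMap.smulRightL ℝ E W) (c i) (u (b i)) := by
    intro u
    ext x
    conv_lhs => rw [hexp x]
    rw [map_sum, sum_apply]
    refine Finset.sum_congr rfl fun i _ => ?_
    rw [map_smul]
    rfl
  have h2 : (fun B : E →L[ℝ] E => l (rep B p.1, (rep B).comp (p.2.comp B))) =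
      fun B : E →L[ℝ] E => (l.comp (ContinuousLinearMap.inl ℝ W (E →L[ℝ] W))) (rep B p.1) +
        ∑ i, ∑ j, c j (B (b i)) * l2 i (rep B (p.2 (b j))) := by
    funext B
    have h3 : (rep B p.1, (rep B).comp (p.2.comp B)) =
        ContinuousLinearMap.inl ℝ W (E →L[ℝ] W) (rep B p.1) +
        ContinuousLinearMap.inr ℝ W (E →L[ℝ] W) ((rep B).comp (p.2.comp B)) := by
      simp
    rw [h3, map_add]
    congr 1
    conv_lhs => rw [h1 ((rep B).comp (p.2.comp B))]
    rw [map_sum, map_sum]
    refine Finset.sum_congr rfl fun i _ => ?_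
    have h4 : ((rep B).comp (p.2.comp B)) (b i) = ∑ j, c j (B (b i)) • rep B (p.2 (b j)) := by
      show rep B (p.2 (B (b i))) = _
      conv_lhs => rw [hexp (B (b i))]
      rw [map_sum, map_sum]
      exact Finset.sum_congr rfl fun j _ => by rw [map_smul, map_smul]
    rw [h4]
    have h5 : l (ContinuousLinearMap.inr ℝ W (E →L[ℝ] W)
        ((ContinuousLinearMap.smulRightL ℝ E W) (c i) (∑ j, c j (B (b i)) • rep B (p.2 (b j))))) =
        l2 i (∑ j, c j (B (b i)) • rep B (p.2 (b j))) := rfl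
    rw [h5, map_sum]
    exact Finset.sum_congr rfl fun j _ => by rw [map_smul, smul_eq_mul]
  rw [h2]
  refine Pol.add (h _ _) (Pol.sum _ fun i _ => Pol.sum _ fun j _ => Pol.mul ?_ (h _ _))
  exact Pol.lin ((c j).comp (ContinuousLinearMap.apply ℝ E (b i)))

end Aff

section Quad

variable {F G W : Type} [NormedAddCommGroup F] [NormedSpace ℝ F] [FiniteDimensional ℝ F]
  [NormedAddCommGroup G] [NormedSpace ℝ G]

/-- a quadratic form is polynomial -/
theorem Pol.quad (β : F →L[ℝ] F →L[ℝ] ℝ) : (fun x => β x x) ∈ Pol F := by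
  classical
  set b := Module.finBasis ℝ F with hb
  set c : Fin (Module.finrank ℝ F) → (F →L[ℝ] ℝ) := fun i =>
    LinearMap.toContinuousLinearMap (b.coord i) with hc
  have hexp : ∀ x : F, x = ∑ i, c i x • b i := fun x => (b.sum_repr x).symm
  have h1 : (fun x => β x x) = fun x => ∑ i, c i x * β (b i) x := by
    funext x
    have h2 : β x = ∑ i, c i x • β (b i) := by
      conv_lhs => rw [hexp x]
      rw [map_sum]
      exact Finset.sum_congr rfl fun i _ => by rw [map_smul]
    conv_lhs => rw [h2]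
    rw [sum_apply]
    rfl
  rw [h1]
  exact Pol.sum _ fun i _ => Pol.mul (Pol.lin _) (Pol.lin _)

/-- the derivative of a quadratic map -/
theorem hasDerivAt_quad {F G : Type} [NormedAddCommGroup F] [NormedSpace ℝ F]
    [NormedAddCommGroup G] [NormedSpace ℝ G] (β : F →L[ℝ] F →L[ℝ] G) (e Y : F) :
    HasDerivAt (fun t : ℝ => β (e + t • Y) (e + t • Y)) ((β.flip e + β e) Y) 0 := by
  have h1 : HasDerivAt (fun t : ℝ => e + t • Y) Y 0 := by
    have := ((hasDerivAt_id (0 : ℝ)).smul_const Y).const_add e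
    simpa using this
  have h2 : HasDerivAt (fun t : ℝ => β (e + t • Y)) (β Y) 0 :=
    HasFDerivAt.comp_hasDerivAt (l := fun x => β x) (0 : ℝ)
      (β.hasFDerivAt (x := e + (0 : ℝ) • Y)) h1
  have h3 := h2.clm_apply h1
  have h4 : β Y (e + (0 : ℝ) • Y) + β (e + (0 : ℝ) • Y) Y = (β.flip e + β e) Y := by
    rw [zero_smul, add_zero]
    rfl
  rw [h4] at h3
  exact h3

end Quad

end Vale.Agent.P207.H80.Orb

namespace Vale.Agent.P207.H80

open Vale.Agent.P207.H80.Orb Vale.Agent.P207.H734 Vale.Agent.P207.H751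

variable {V : Type} [NormedAddCommGroup V] [NormedSpace ℝ V]

/-- the form `s (A ·, C ·)` -/
noncomputable def pb2 (A C : V →L[ℝ] V) : Fm V →L[ℝ] Fm V :=
  LinearMap.mkContinuous
    { toFun := fun s => Fm.of ((s.f.comp A).flip.comp C).flip
      map_add' := by
        intro s t
        refine Fm.ext fun x y => ?_
        simp only [Fm.f_of, Fm.f_add, ContinuousLinearMap.flip_apply,
          ContinuousLinearMap.comp_apply, add_apply]
      map_smul' := by
        intro c s
        refine Fm.ext fun x y => ?_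
        simp only [Fm.f_of, Fm.f_smul, ContinuousLinearMap.flip_apply,
          ContinuousLinearMap.comp_apply, smul_apply, RingHom.id_apply] }
    (‖A‖ * ‖C‖) (by
      intro s
      refine Fm.norm_le (by positivity) fun x y => ?_
      have e : (Fm.of ((s.f.comp A).flip.comp C).flip).f x y = s.f (A x) (C y) := by
        simp only [Fm.f_of, ContinuousLinearMap.flip_apply, ContinuousLinearMap.comp_apply]
      show ‖(Fm.of ((s.f.comp A).flip.comp C).flip).f x y‖ ≤ _
      rw [e]
      calc ‖s.f (A x) (C y)‖ ≤ ‖s‖ * ‖A x‖ * ‖C y‖ := s.le _ _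
        _ ≤ ‖s‖ * (‖A‖ * ‖x‖) * (‖C‖ * ‖y‖) := by
            gcongr
            · exact A.le_opNorm _
            · exact C.le_opNorm _
        _ = ‖A‖ * ‖C‖ * ‖s‖ * ‖x‖ * ‖y‖ := by ring)

theorem pb2_apply (A C : V →L[ℝ] V) (s : Fm V) (x y : V) :
    (pb2 A C s).f x y = s.f (A x) (C y) := by
  show (Fm.of ((s.f.comp A).flip.comp C).flip).f x y = _
  simp only [Fm.f_of, ContinuousLinearMap.flip_apply, ContinuousLinearMap.comp_apply]

theorem pb2_norm (A C : V →L[ℝ] V) : ‖pb2 A C‖ ≤ ‖A‖ * ‖C‖ :=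
  LinearMap.mkContinuous_norm_le _ (by positivity) _

/-- `pb2` as a continuous bilinear map -/
noncomputable def pb2L : (V →L[ℝ] V) →L[ℝ] (V →L[ℝ] V) →L[ℝ] (Fm V →L[ℝ] Fm V) :=
  LinearMap.mkContinuous₂ (LinearMap.mk₂ ℝ pb2
    (by
      intro A A' C
      ext1 s
      refine Fm.ext fun x y => ?_
      rw [add_apply, Fm.f_add, add_apply, add_apply, pb2_apply, pb2_apply, pb2_apply,
        add_apply, map_add, add_apply])
    (by
      intro c A C
      ext1 s
      refine Fm.ext fun x y => ?_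
      rw [smul_apply, Fm.f_smul, smul_apply, smul_apply, pb2_apply, pb2_apply,
        smul_apply, map_smul, smul_apply])
    (by
      intro A C C'
      ext1 s
      refine Fm.ext fun x y => ?_
      rw [add_apply, Fm.f_add, add_apply, add_apply, pb2_apply, pb2_apply, pb2_apply,
        add_apply, map_add])
    (by
      intro c A C
      ext1 s
      refine Fm.ext fun x y => ?_
      rw [smul_apply, Fm.f_smul, smul_apply, smul_apply, pb2_apply, pb2_apply,
        smul_apply, map_smul])) 1 (by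
      intro A C
      rw [one_mul]
      exact pb2_norm A C)

theorem pb2L_apply (A C : V →L[ℝ] V) : pb2L A C = pb2 A C := rfl

theorem pb_eq (A : V →L[ℝ] V) : pb A = pb2L A A := by
  ext1 s
  refine Fm.ext fun x y => ?_
  rw [pb_apply, pb2L_apply, pb2_apply]

/-- the representation of `GL(V)` on the forms -/
noncomputable def fmRep (V : Type) [NormedAddCommGroup V] [NormedSpace ℝ V] : PRep V (Fm V) where
  rep := pb
  d := (pb2L (V := V)).flip 1 + pb2L 1
  one := by
    ext1 s
    refine Fm.ext fun x y => ?_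
    rw [pb_apply]
    rfl
  mul := by
    intro B C
    ext1 s
    refine Fm.ext fun x y => ?_
    rw [pb_apply, ContinuousLinearMap.comp_apply, pb_apply, pb_apply]
    rfl
  cont := by
    have h : (pb : (V →L[ℝ] V) → (Fm V →L[ℝ] Fm V)) = fun A => pb2L A A := funext pb_eq
    rw [h]
    fun_prop
  der := by
    intro Y
    have h : (fun t : ℝ => pb (1 + t • Y : V →L[ℝ] V)) =
        fun t : ℝ => pb2L (1 + t • Y) (1 + t • Y) := by
      funext t
      exact pb_eq _
    rw [h]
    exact hasDerivAt_quad pb2L 1 Y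

theorem fmRep_rep (B : V →L[ℝ] V) : (fmRep V).rep B = pb B := rfl

theorem fmRep_d (Y : V →L[ℝ] V) (s : Fm V) (x y : V) :
    ((fmRep V).d Y s).f x y = s.f (Y x) y + s.f x (Y y) := by
  have h : (fmRep V).d Y s = pb2 Y 1 s + pb2 1 Y s := rfl
  rw [h, Fm.f_add, add_apply, add_apply, pb2_apply, pb2_apply]
  rfl

theorem fmRep_isPol [FiniteDimensional ℝ V] : (fmRep V).IsPol := by
  intro l w
  have h : (fun B : V →L[ℝ] V => l ((fmRep V).rep B w)) = fun B : V →L[ℝ] V =>
      (((ContinuousLinearMap.compL ℝ (V →L[ℝ] V) (Fm V →L[ℝ] Fm V) ℝ)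
        (l.comp (ContinuousLinearMap.apply ℝ (Fm V) w))).comp (pb2L (V := V))) B B := by
    funext B
    show l (pb B w) = l (pb2L B B w)
    rw [pb_eq]
  rw [h]
  exact Pol.quad _

end Vale.Agent.P207.H80
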