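import Mathlib

/-!
# P207, Lemma Z: the equations of the image of a polynomial map

The image of a polynomial map `Φ : ℝ^σ → ℝ^ι` satisfies polynomial equations whose common kernel,
at the image of a generic point, is the range of the derivative of `Φ`.
-/

open MvPolynomial

namespace Vale.Agent.P207.H80.Z

/-- chain rule -/
theorem pderiv_aeval {τ σ : Type} [Fintype τ] (Y : τ → MvPolynomial σ ℝ) (g : MvPolynomial τ ℝ)
    (a : σ) : pderiv a (aeval Y g) = ∑ o, aeval Y (pderiv o g) * pderiv a (Y o) := by
  classical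
  induction g using MvPolynomial.induction_on with
  | C r => simp
  | add f g hf hg => simp only [map_add, hf, hg, add_mul, Finset.sum_add_distrib]
  | mul_X f i hf =>
    simp only [map_mul, pderiv_mul, hf, aeval_X, map_add, add_mul, Finset.sum_add_distrib,
      Finset.sum_mul, pderiv_X]
    congr 1
    · exact Finset.sum_congr rfl fun o _ => by ring
    · rw [Finset.sum_eq_single i]
      · simp
      · intro b _ hb
        simp [Ne.symm hb]
      · intro h
        exact absurd (Finset.mem_univ i) h

theorem totalDegree_pderiv_lt {τ : Type} (g : MvPolynomial τ ℝ) (i : τ) (h : pderiv i g ≠ 0) :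
    (pderiv i g).totalDegree < g.totalDegree := by
  classical
  have key : ∀ m ∈ (pderiv i g).support, (m.sum fun _ e => e) + 1 ≤ g.totalDegree := by
    intro m hm
    rw [mem_support_iff, coeff_pderiv] at hm
    have h1 : m + Finsupp.single i 1 ∈ g.support := by
      rw [mem_support_iff]
      exact left_ne_zero_of_mul hm
    have h2 := le_totalDegree h1
    rw [Finsupp.sum_add_index' (fun _ => rfl) (fun _ _ _ => rfl)] at h2
    simpa using h2
  obtain ⟨m, hm⟩ := Finset.nonempty_of_ne_empty (by simpa using h : (pderiv i g).support ≠ ∅)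
  have hpos : 0 < g.totalDegree := lt_of_lt_of_le (Nat.succ_pos _) (key m hm)
  rw [totalDegree, Finset.sup_lt_iff hpos]
  intro m hm
  exact key m hm

/-- a polynomial with zero derivative in the direction `none` does not depend on `none` -/
theorem exists_rename_some {τ : Type} (g : MvPolynomial (Option τ) ℝ) (h : pderiv none g = 0) :
    ∃ g' : MvPolynomial τ ℝ, rename some g' = g := by
  classical
  refine exists_rename_eq_of_vars_subset_range g some (Option.some_injective _) ?_
  intro o ho
  cases o with
  | some x => exact ⟨x, rfl⟩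
  | none =>
    exfalso
    rw [Finset.mem_coe, mem_vars_iff_mem_support] at ho
    obtain ⟨d, hd, hn⟩ := ho
    have h1 : d none ≠ 0 := by simpa using hn
    have h2 : coeff (d - Finsupp.single none 1) (pderiv none g) = 0 := by rw [h]; simp
    rw [coeff_pderiv] at h2
    have h3 : d - Finsupp.single none 1 + Finsupp.single none 1 = d := by
      apply tsub_add_cancel_of_le
      rw [Finsupp.single_le_iff]
      omega
    rw [h3] at h2
    rcases mul_eq_zero.mp h2 with h4 | h4
    · exact (mem_support_iff.mp hd) h4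
    · have : (0 : ℝ) ≤ ((d - Finsupp.single none 1 : Option τ →₀ ℕ) none : ℝ) := Nat.cast_nonneg _
      linarith

/-- an algebraic relation with nonvanishing derivative -/
theorem exists_rel {τ σ : Type} (Y : τ → MvPolynomial σ ℝ) (hY : AlgebraicIndependent ℝ Y)
    (z : MvPolynomial σ ℝ) (hz : ¬ AlgebraicIndependent ℝ (fun o : Option τ => o.elim z Y)) :
    ∃ g : MvPolynomial (Option τ) ℝ, aeval (fun o : Option τ => o.elim z Y) g = 0 ∧
      aeval (fun o : Option τ => o.elim z Y) (pderiv none g) ≠ 0 := by
  classical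
  set T : Option τ → MvPolynomial σ ℝ := fun o => o.elim z Y with hT
  have hex : ∃ n : ℕ, ∃ g : MvPolynomial (Option τ) ℝ, g ≠ 0 ∧ aeval T g = 0 ∧
      g.totalDegree = n := by
    rw [algebraicIndependent_iff] at hz
    push Not at hz
    obtain ⟨g, h1, h2⟩ := hz
    exact ⟨_, g, h2, h1, rfl⟩
  obtain ⟨g, hg0, hg, hgn⟩ := Nat.find_spec hex
  refine ⟨g, hg, fun h => ?_⟩
  by_cases h0 : pderiv none g = 0
  · obtain ⟨g', rfl⟩ := exists_rename_some g h0
    rw [aeval_rename] at hg
    have h1 : g' = 0 := by
      rw [algebraicIndependent_iff] at hY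
      exact hY g' hg
    exact hg0 (by rw [h1]; simp)
  · have h1 := totalDegree_pderiv_lt g none h0
    rw [hgn] at h1
    exact Nat.find_min hex h1 ⟨_, h0, h, rfl⟩

/-- maximal algebraically independent extensions -/
theorem exists_max {ι κ σ : Type} [Finite ι] (Y : κ → MvPolynomial σ ℝ)
    (hY : AlgebraicIndependent ℝ Y) (Z : ι → MvPolynomial σ ℝ) :
    ∃ s : Set ι, AlgebraicIndependent ℝ (Sum.elim Y fun i : s => Z i) ∧
      ∀ j, j ∉ s → ¬ AlgebraicIndependent ℝ
        (fun o : Option (κ ⊕ s) => o.elim (Z j) (Sum.elim Y fun i : s => Z i)) := by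
  classical
  set P : Set (Set ι) := {s | AlgebraicIndependent ℝ (Sum.elim Y fun i : s => Z i)} with hP
  have hne : P.Nonempty := by
    refine ⟨∅, ?_⟩
    have h1 : (Sum.elim Y fun i : (∅ : Set ι) => Z i) =
        Y ∘ (Sum.elim id fun i : (∅ : Set ι) => (Set.notMem_empty _ i.2).elim) := by
      funext o
      rcases o with k | i
      · rfl
      · exact (Set.notMem_empty _ i.2).elim
    show AlgebraicIndependent ℝ (Sum.elim Y fun i : (∅ : Set ι) => Z i)
    rw [h1]
    refine hY.comp _ ?_
    rintro (a | a) (b | b) hab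
    · exact congrArg Sum.inl hab
    · exact (Set.notMem_empty _ b.2).elim
    · exact (Set.notMem_empty _ a.2).elim
    · exact (Set.notMem_empty _ a.2).elim
  obtain ⟨s, hs⟩ := (Set.toFinite P).exists_maximal hne
  refine ⟨s, hs.prop, fun j hj h => ?_⟩
  have h2 : insert j s ∈ P := by
    set e : κ ⊕ (insert j s : Set ι) → Option (κ ⊕ s) := fun o =>
      match o with
      | Sum.inl k => some (Sum.inl k)
      | Sum.inr i => if h : (i : ι) ∈ s then some (Sum.inr ⟨i, h⟩) else none with he
    have h3 : (Sum.elim Y fun i : (insert j s : Set ι) => Z i) =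
        (fun o : Option (κ ⊕ s) => o.elim (Z j) (Sum.elim Y fun i : s => Z i)) ∘ e := by
      funext o
      rcases o with k | i
      · rfl
      · by_cases h4 : (i : ι) ∈ s
        · simp [he, h4]
        · have h5 : (i : ι) = j := by
            rcases i.2 with h6 | h6
            · exact h6
            · exact absurd h6 h4
          simp [he, h5, hj]
    show AlgebraicIndependent ℝ (Sum.elim Y fun i : (insert j s : Set ι) => Z i)
    rw [h3]
    refine h.comp _ ?_
    rintro (a | a) (b | b) hab
    · simpa [he] using hab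
    · exfalso
      by_cases h4 : (b : ι) ∈ s <;> simp [he, h4] at hab
    · exfalso
      by_cases h4 : (a : ι) ∈ s <;> simp [he, h4] at hab
    · by_cases h4 : (a : ι) ∈ s
      · by_cases h5 : (b : ι) ∈ s
        · simp only [he, h4, h5, dite_true, Option.some.injEq, Sum.inr.injEq,
            Subtype.mk.injEq] at hab
          exact congrArg Sum.inr (Subtype.ext hab)
        · simp [he, h4, h5] at hab
      · by_cases h5 : (b : ι) ∈ s
        · simp [he, h4, h5] at hab
        · have h6 : (a : ι) = j := a.2.resolve_right h4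
          have h7 : (b : ι) = j := b.2.resolve_right h5
          exact congrArg Sum.inr (Subtype.ext (h6.trans h7.symm))
  have h8 : insert j s ≤ s := hs.le_of_ge h2 (Set.subset_insert j s)
  exact hj (h8 (Set.mem_insert j s))

/-- **Lemma Z.** Polynomial equations of the image of a polynomial map, with the exact common
kernel at generic points. -/
theorem lemmaZ {σ ι : Type} [Fintype σ] [Fintype ι] (Φ : ι → MvPolynomial σ ℝ) :
    ∃ (f : ι → MvPolynomial ι ℝ) (Δ : MvPolynomial σ ℝ), Δ ≠ 0 ∧ (∀ j, aeval Φ (f j) = 0) ∧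
      ∀ p : σ → ℝ, eval p Δ ≠ 0 → ∀ v : ι → ℝ,
        (∀ j, ∑ i, eval (fun i => eval p (Φ i)) (pderiv i (f j)) * v i = 0) →
        ∃ w : σ → ℝ, ∀ j, v j = ∑ a, eval p (pderiv a (Φ j)) * w a := by
  classical
  -- the maximal independent subfamily
  have h0 : AlgebraicIndependent ℝ (Empty.elim : Empty → MvPolynomial σ ℝ) :=
    algebraicIndependent_empty_type_iff.mpr (MvPolynomial.C_injective σ ℝ)
  obtain ⟨s, hs, hs'⟩ := exists_max (ι := ι) Empty.elim h0 Φ
  set Y : Empty ⊕ s → MvPolynomial σ ℝ := Sum.elim Empty.elim fun i : s => Φ i with hYd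
  obtain ⟨t, ht, ht'⟩ := exists_max (ι := σ) Y hs (fun a => X a)
  set Y2 : (Empty ⊕ s) ⊕ t → MvPolynomial σ ℝ := Sum.elim Y fun a : t => X (a : σ) with hY2
  -- relations for the other components
  have hf : ∀ j, ∃ f : MvPolynomial ι ℝ, aeval Φ f = 0 ∧ (j ∉ s → aeval Φ (pderiv j f) ≠ 0 ∧
      ∀ i, i ∉ s → i ≠ j → pderiv i f = 0) := by
    intro j
    by_cases hj : j ∈ s
    · exact ⟨0, by simp, fun h => absurd hj h⟩
    obtain ⟨g, hg, hg'⟩ := exists_rel Y hs (Φ j) (hs' j hj)
    set e : Option (Empty ⊕ s) → ι := fun o => o.elim j (Sum.elim Empty.elim fun i : s => (i : ι))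
      with he
    have hinj : Function.Injective e := by
      rintro (_ | (a | a)) (_ | (b | b)) hab
      · rfl
      · exact b.elim
      · exfalso
        exact hj (by have : j = (b : ι) := hab
                     rw [this]; exact b.2)
      · exact a.elim
      · exact a.elim
      · exact a.elim
      · exfalso
        exact hj (by have : (a : ι) = j := hab
                     rw [← this]; exact a.2)
      · exact b.elim
      · have : (a : ι) = (b : ι) := hab
        rw [Subtype.ext this]
    have hcomp : Φ ∘ e = fun o : Option (Empty ⊕ s) => o.elim (Φ j) Y := by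
      funext o
      rcases o with _ | (a | a)
      · rfl
      · exact a.elim
      · rfl
    refine ⟨rename e g, ?_, fun _ => ⟨?_, ?_⟩⟩
    · rw [aeval_rename, hcomp, hg]
    · have h1 : pderiv (e none) (rename e g) = rename e (pderiv none g) := pderiv_rename hinj _ _
      have h2 : e none = j := rfl
      rw [h2] at h1
      rw [h1, aeval_rename, hcomp]
      exact hg'
    · intro i hi hij
      refine pderiv_eq_zero_of_notMem_vars fun hmem => ?_
      obtain ⟨o, -, ho⟩ := mem_vars_rename e g hmem
      rcases o with _ | (a | a)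
      · exact hij ho.symm
      · exact a.elim
      · exact hi (by have : (a : ι) = i := ho
                     rw [← this]; exact a.2)
  choose f hf1 hf2 using hf
  -- relations for the other coordinates
  have hh : ∀ b : σ, ∃ g : MvPolynomial (Option ((Empty ⊕ s) ⊕ t)) ℝ,
      aeval (fun o : Option ((Empty ⊕ s) ⊕ t) => o.elim (X b) Y2) g = 0 ∧
      (b ∉ t → aeval (fun o : Option ((Empty ⊕ s) ⊕ t) => o.elim (X b) Y2)
        (pderiv none g) ≠ 0) := by
    intro b
    by_cases hb : b ∈ t
    · exact ⟨0, by simp, fun h => absurd hb h⟩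
    obtain ⟨g, hg, hg'⟩ := exists_rel Y2 ht (X b) (ht' b hb)
    exact ⟨g, hg, fun _ => hg'⟩
  choose g hg1 hg2 using hh
  have hcard : Fintype.card ((Empty ⊕ s) ⊕ t) ≤ Fintype.card σ := by
    have h1 := ht.cardinalMk_le_trdeg
    rw [MvPolynomial.trdeg_of_isDomain, Cardinal.lift_id, Cardinal.mk_fintype,
      Cardinal.mk_fintype] at h1
    exact_mod_cast h1
  refine ⟨f, (∏ j ∈ Finset.univ.filter (· ∉ s), aeval Φ (pderiv j (f j))) *
    ∏ b ∈ Finset.univ.filter (· ∉ t), aeval (fun o : Option ((Empty ⊕ s) ⊕ t) =>
      o.elim (X b) Y2) (pderiv none (g b)), ?_, hf1, ?_⟩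
  · refine mul_ne_zero ?_ ?_
    · rw [Finset.prod_ne_zero_iff]
      intro j hj
      exact (hf2 j (Finset.mem_filter.mp hj).2).1
    · rw [Finset.prod_ne_zero_iff]
      intro b hb
      exact hg2 b (Finset.mem_filter.mp hb).2
  intro p hp v hv
  rw [map_mul, map_prod, map_prod] at hp
  have hp1 : ∀ j, j ∉ s → eval p (aeval Φ (pderiv j (f j))) ≠ 0 := by
    intro j hj h
    exact left_ne_zero_of_mul hp (Finset.prod_eq_zero
      (Finset.mem_filter.mpr ⟨Finset.mem_univ j, hj⟩) h)
  have hp2 : ∀ b, b ∉ t → eval p (aeval (fun o : Option ((Empty ⊕ s) ⊕ t) =>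
      o.elim (X b) Y2) (pderiv none (g b))) ≠ 0 := by
    intro b hb h
    exact right_ne_zero_of_mul hp (Finset.prod_eq_zero
      (Finset.mem_filter.mpr ⟨Finset.mem_univ b, hb⟩) h)
  -- the linear map of the covectors is injective
  set L : (σ → ℝ) →ₗ[ℝ] ((Empty ⊕ s) ⊕ t → ℝ) :=
    { toFun := fun w o => ∑ a, eval p (pderiv a (Y2 o)) * w a
      map_add' := fun w w' => by
        funext o
        simp only [Pi.add_apply, mul_add, Finset.sum_add_distrib]
      map_smul' := fun c w => by
        funext o
        simp only [Pi.smul_apply, smul_eq_mul, RingHom.id_apply, Finset.mul_sum]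
        exact Finset.sum_congr rfl fun a _ => by ring } with hL
  have hLinj : Function.Injective L := by
    rw [injective_iff_map_eq_zero]
    intro w hw
    have hw' : ∀ o, ∑ a, eval p (pderiv a (Y2 o)) * w a = 0 := fun o => congrFun hw o
    funext b
    by_cases hb : b ∈ t
    · have h1 := hw' (Sum.inr ⟨b, hb⟩)
      rw [Finset.sum_eq_single b] at h1
      · simpa [hY2] using h1
      · intro a _ hab
        simp [hY2, pderiv_X, hab]
      · intro h
        exact absurd (Finset.mem_univ b) h
    · have h1 : ∀ a, eval p (aeval (fun o : Option ((Empty ⊕ s) ⊕ t) => o.elim (X b) Y2)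
          (pderiv none (g b))) * eval p (pderiv a (X b)) +
          ∑ o, eval p (aeval (fun o : Option ((Empty ⊕ s) ⊕ t) => o.elim (X b) Y2)
            (pderiv (some o) (g b))) * eval p (pderiv a (Y2 o)) = 0 := by
        intro a
        have h2 := congrArg (fun q => eval p (pderiv a q)) (hg1 b)
        simp only [map_zero] at h2
        rw [pderiv_aeval, map_sum, Fintype.sum_option] at h2
        simpa only [map_mul, Option.elim] using h2
      have h3 : ∑ a, (eval p (aeval (fun o : Option ((Empty ⊕ s) ⊕ t) => o.elim (X b) Y2)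
          (pderiv none (g b))) * eval p (pderiv a (X b)) +
          ∑ o, eval p (aeval (fun o : Option ((Empty ⊕ s) ⊕ t) => o.elim (X b) Y2)
            (pderiv (some o) (g b))) * eval p (pderiv a (Y2 o))) * w a = 0 :=
        Finset.sum_eq_zero fun a _ => by rw [h1 a, zero_mul]
      simp only [add_mul, Finset.sum_add_distrib, Finset.sum_mul] at h3
      rw [Finset.sum_comm] at h3
      have h4 : ∀ o, ∑ a, eval p (aeval (fun o : Option ((Empty ⊕ s) ⊕ t) => o.elim (X b) Y2)
            (pderiv (some o) (g b))) * eval p (pderiv a (Y2 o)) * w a = 0 := by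
        intro o
        simp only [mul_assoc]
        rw [← Finset.mul_sum, hw' o, mul_zero]
      rw [Finset.sum_eq_zero (fun o _ => h4 o), add_zero, Finset.sum_eq_single b] at h3
      · rw [pderiv_X_self, map_one, mul_one] at h3
        exact (mul_eq_zero.mp h3).resolve_left (hp2 b hb)
      · intro a _ hab
        simp [pderiv_X, hab]
      · intro h
        exact absurd (Finset.mem_univ b) h
  have hLsurj : Function.Surjective L := by
    have h1 : Module.finrank ℝ (σ → ℝ) ≤ Module.finrank ℝ ((Empty ⊕ s) ⊕ t → ℝ) :=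
      LinearMap.finrank_le_finrank_of_injective hLinj
    have h2 : Module.finrank ℝ (σ → ℝ) = Module.finrank ℝ ((Empty ⊕ s) ⊕ t → ℝ) := by
      refine le_antisymm h1 ?_
      rw [Module.finrank_fintype_fun_eq_card, Module.finrank_fintype_fun_eq_card]
      exact hcard
    exact (LinearMap.injective_iff_surjective_of_finrank_eq_finrank h2).mp hLinj
  -- the solution
  obtain ⟨w, hw⟩ := hLsurj (Sum.elim (Sum.elim Empty.elim fun i : s => v i) fun _ => 0)
  have hws : ∀ i, i ∈ s → v i = ∑ a, eval p (pderiv a (Φ i)) * w a := by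
    intro i hi
    exact (congrFun hw (Sum.inl (Sum.inr ⟨i, hi⟩))).symm
  refine ⟨w, fun j => ?_⟩
  by_cases hj : j ∈ s
  · exact hws j hj
  -- the relation `f j`
  have h1 : ∀ a, ∑ i, eval p (aeval Φ (pderiv i (f j))) * eval p (pderiv a (Φ i)) = 0 := by
    intro a
    have h2 := congrArg (fun q => eval p (pderiv a q)) (hf1 j)
    simp only [map_zero] at h2
    rw [pderiv_aeval, map_sum] at h2
    simpa only [map_mul] using h2
  have heval : ∀ q : MvPolynomial ι ℝ, eval p (aeval Φ q) = eval (fun i => eval p (Φ i)) q := by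
    intro q
    rw [← MvPolynomial.coe_aeval_eq_eval, ← MvPolynomial.coe_aeval_eq_eval]
    simp only [RingHom.coe_coe]
    rw [← MvPolynomial.comp_aeval_apply]
  have h3 : ∑ i, eval p (aeval Φ (pderiv i (f j))) *
      (v i - ∑ a, eval p (pderiv a (Φ i)) * w a) = 0 := by
    simp only [mul_sub, Finset.sum_sub_distrib]
    have h4 : ∑ i, eval p (aeval Φ (pderiv i (f j))) * v i = 0 := by
      simp only [heval]
      exact hv j
    have h5 : ∑ i, eval p (aeval Φ (pderiv i (f j))) * ∑ a, eval p (pderiv a (Φ i)) * w a = 0 := by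
      simp only [Finset.mul_sum]
      rw [Finset.sum_comm]
      refine Finset.sum_eq_zero fun a _ => ?_
      have h6 : ∀ i, eval p (aeval Φ (pderiv i (f j))) * (eval p (pderiv a (Φ i)) * w a) =
          eval p (aeval Φ (pderiv i (f j))) * eval p (pderiv a (Φ i)) * w a := fun i => by ring
      simp only [h6]
      rw [← Finset.sum_mul, h1 a, zero_mul]
    rw [h4, h5, sub_zero]
  rw [Finset.sum_eq_single j] at h3
  · have h7 := (mul_eq_zero.mp h3).resolve_left (hp1 j hj)
    linarith
  · intro i _ hij
    by_cases hi : i ∈ s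
    · rw [hws i hi, sub_self, mul_zero]
    · rw [(hf2 j hj).2 i hi hij, map_zero, map_zero, zero_mul]
  · intro h
    exact absurd (Finset.mem_univ j) h

end Vale.Agent.P207.H80.Z
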